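import Vale.Agent.P295.Quad

/-! P295: polynomials affine in all variables but one (helper5). -/

namespace Vale.P295

open MvPolynomial

section
variable {σ : Type} [Fintype σ] [DecidableEq σ]

/-- `a_0(x_i) + ∑_{j ≠ i} a_j(x_i) x_j` -/
noncomputable def aff (i : σ) (a0 : Polynomial ℂ) (a : σ → Polynomial ℂ) : MvPolynomial σ ℂ :=
  Polynomial.aeval (X i) a0 + ∑ j ∈ Finset.univ.erase i, Polynomial.aeval (X i) (a j) * X j

theorem pderiv_aeval_ne (i k : σ) (hk : k ≠ i) (p : Polynomial ℂ) :
    pderiv k (Polynomial.aeval (X i : MvPolynomial σ ℂ) p) = 0 := by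
  rw [Derivation.map_aeval, pderiv_X_of_ne hk.symm, smul_zero]

theorem pderiv_aff (i k : σ) (hk : k ≠ i) (a0 : Polynomial ℂ) (a : σ → Polynomial ℂ) :
    pderiv k (aff i a0 a) = Polynomial.aeval (X i) (a k) := by
  unfold aff
  rw [map_add, pderiv_aeval_ne i k hk, zero_add, map_sum, Finset.sum_eq_single k]
  · rw [pderiv_mul, pderiv_aeval_ne i k hk, zero_mul, pderiv_X_self, mul_one, zero_add]
  · intro j _ hj
    rw [pderiv_mul, pderiv_aeval_ne i k hk, zero_mul, pderiv_X_of_ne hj, mul_zero, zero_add]
  · intro h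
    exact absurd (Finset.mem_erase.2 ⟨hk, Finset.mem_univ k⟩) h

/-- elementary operation -/
theorem elem (i j k : σ) (hj : j ≠ i) (hk : k ≠ i) (hjk : j ≠ k) (a0 : Polynomial ℂ)
    (a : σ → Polynomial ℂ) (q : Polynomial ℂ)
    (h : IsCoordinate (aff i a0 (Function.update a j (a j - a k * q)))) :
    IsCoordinate (aff i a0 a) := by
  obtain ⟨Q, hQ⟩ : ∃ Q : MvPolynomial σ ℂ, Q = Polynomial.aeval (X i) q := ⟨_, rfl⟩
  obtain ⟨F, hF⟩ : ∃ F : MvPolynomial σ ℂ →ₐ[ℂ] MvPolynomial σ ℂ,
      F = aeval (Function.update X k (X k - Q * X j)) := ⟨_, rfl⟩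
  obtain ⟨G, hG⟩ : ∃ G : MvPolynomial σ ℂ →ₐ[ℂ] MvPolynomial σ ℂ,
      G = aeval (Function.update X k (X k + Q * X j)) := ⟨_, rfl⟩
  have F1 : F (X k) = X k - Q * X j := by rw [hF, aeval_X, Function.update_self]
  have F2 : ∀ l, l ≠ k → F (X l) = X l := fun l hl => by
    rw [hF, aeval_X, Function.update_of_ne hl]
  have G1 : G (X k) = X k + Q * X j := by rw [hG, aeval_X, Function.update_self]
  have G2 : ∀ l, l ≠ k → G (X l) = X l := fun l hl => by
    rw [hG, aeval_X, Function.update_of_ne hl]
  have Fp : ∀ p : Polynomial ℂ, F (Polynomial.aeval (X i) p) = Polynomial.aeval (X i) p := by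
    intro p
    rw [← Polynomial.aeval_algHom_apply, F2 i hk.symm]
  have Gp : ∀ p : Polynomial ℂ, G (Polynomial.aeval (X i) p) = Polynomial.aeval (X i) p := by
    intro p
    rw [← Polynomial.aeval_algHom_apply, G2 i hk.symm]
  have FQ : F Q = Q := by rw [hQ]; exact Fp q
  have GQ : G Q = Q := by rw [hQ]; exact Gp q
  have e1 : F.comp G = AlgHom.id ℂ _ := by
    apply MvPolynomial.algHom_ext
    intro l
    by_cases hl : l = k
    · subst hl
      rw [AlgHom.comp_apply, G1, map_add, map_mul, F1, FQ, F2 j hjk, sub_add_cancel]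
      rfl
    · rw [AlgHom.comp_apply, G2 l hl, F2 l hl]
      rfl
  have e2 : G.comp F = AlgHom.id ℂ _ := by
    apply MvPolynomial.algHom_ext
    intro l
    by_cases hl : l = k
    · subst hl
      rw [AlgHom.comp_apply, F1, map_sub, map_mul, G1, GQ, G2 j hjk, add_sub_cancel_right]
      rfl
    · rw [AlgHom.comp_apply, F2 l hl, G2 l hl]
      rfl
  refine coord_of_equiv (AlgEquiv.ofAlgHom F G e1 e2) _ ?_
  change IsCoordinate (F (aff i a0 a))
  have h2 : F (aff i a0 a) = aff i a0 (Function.update a j (a j - a k * q)) := by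
    unfold aff
    rw [map_add, Fp, map_sum]
    congr 1
    have hj' : j ∈ Finset.univ.erase i := Finset.mem_erase.2 ⟨hj, Finset.mem_univ j⟩
    have hk' : k ∈ (Finset.univ.erase i).erase j :=
      Finset.mem_erase.2 ⟨hjk.symm, Finset.mem_erase.2 ⟨hk, Finset.mem_univ k⟩⟩
    rw [← Finset.add_sum_erase _ _ hj', ← Finset.add_sum_erase _ _ hk',
      ← Finset.add_sum_erase (Finset.univ.erase i) _ hj', ← Finset.add_sum_erase _ _ hk']
    rw [map_mul, map_mul, Fp, Fp, F1, F2 j hjk, Function.update_self,
      Function.update_of_ne hjk.symm, map_sub, map_mul, ← hQ]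
    have h3 : ∑ l ∈ ((Finset.univ.erase i).erase j).erase k,
        F (Polynomial.aeval (X i) (a l) * X l) =
        ∑ l ∈ ((Finset.univ.erase i).erase j).erase k,
          Polynomial.aeval (X i) (Function.update a j (a j - a k * q) l) * X l := by
      refine Finset.sum_congr rfl fun l hl => ?_
      have hlk : l ≠ k := Finset.ne_of_mem_erase hl
      have hlj : l ≠ j := Finset.ne_of_mem_erase (Finset.mem_of_mem_erase hl)
      rw [map_mul, Fp, F2 l hlk, Function.update_of_ne hlj]
    rw [h3]
    ring
  rw [h2]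
  exact h

theorem aff_coord (i : σ) (a0 : Polynomial ℂ) (N : ℕ) : ∀ a : σ → Polynomial ℂ,
    (∑ j ∈ Finset.univ.erase i, if a j = 0 then 0 else (a j).natDegree + 1) ≤ N →
    (∀ c : ℂ, ∃ j, j ≠ i ∧ (a j).eval c ≠ 0) → IsCoordinate (aff i a0 a) := by
  induction N with
  | zero =>
    intro a hN hroot
    exfalso
    obtain ⟨j, hj, hj2⟩ := hroot 0
    have h0 : a j ≠ 0 := by
      rintro h
      rw [h, Polynomial.eval_zero] at hj2
      exact hj2 rfl
    have h1 := Finset.single_le_sum
      (f := fun j => if a j = 0 then 0 else (a j).natDegree + 1)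
      (fun _ _ => Nat.zero_le _) (Finset.mem_erase.2 ⟨hj, Finset.mem_univ j⟩)
    simp only [if_neg h0] at h1
    omega
  | succ N ih =>
    intro a hN hroot
    -- a nonzero entry of minimal degree
    obtain ⟨j0, hj0, hj02⟩ := hroot 0
    have hj0n : a j0 ≠ 0 := by
      rintro h
      rw [h, Polynomial.eval_zero] at hj02
      exact hj02 rfl
    obtain ⟨k, hk, hkmin⟩ := Finset.exists_min_image
      (Finset.univ.filter fun j => j ≠ i ∧ a j ≠ 0) (fun j => (a j).natDegree)
      ⟨j0, Finset.mem_filter.2 ⟨Finset.mem_univ _, hj0, hj0n⟩⟩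
    obtain ⟨-, hki, hk0⟩ := Finset.mem_filter.1 hk
    by_cases hd : (a k).natDegree = 0
    · obtain ⟨c, hc⟩ := Polynomial.natDegree_eq_zero.1 hd
      have hc0 : c ≠ 0 := by
        rintro rfl
        rw [Polynomial.C_0] at hc
        exact hk0 hc.symm
      refine slice1 _ k c hc0 ?_
      rw [pderiv_aff i k hki, ← hc, Polynomial.aeval_C]
      rfl
    · obtain ⟨c, hc⟩ := IsAlgClosed.exists_root (a k) (by
        intro h
        exact hd (Polynomial.natDegree_eq_of_degree_eq_some h))
      obtain ⟨j, hji, hjc⟩ := hroot c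
      have hjk : j ≠ k := by
        rintro rfl
        exact hjc hc
      have hj0' : a j ≠ 0 := by
        rintro h
        rw [h, Polynomial.eval_zero] at hjc
        exact hjc rfl
      have hdeg := hkmin j (Finset.mem_filter.2 ⟨Finset.mem_univ _, hji, hj0'⟩)
      refine elem i j k hji hki hjk a0 a (a j / a k) (ih _ ?_ ?_)
      · have hmod : a j - a k * (a j / a k) = a j % a k := by
          rw [sub_eq_iff_eq_add, add_comm]
          exact (EuclideanDomain.div_add_mod (a j) (a k)).symm
        rw [hmod]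
        have hj' : j ∈ Finset.univ.erase i := Finset.mem_erase.2 ⟨hji, Finset.mem_univ j⟩
        rw [← Finset.add_sum_erase _ _ hj'] at hN ⊢
        rw [if_neg hj0'] at hN
        rw [Function.update_self]
        have h3 : ∑ l ∈ (Finset.univ.erase i).erase j,
            (if Function.update a j (a j % a k) l = 0 then 0 else
              (Function.update a j (a j % a k) l).natDegree + 1) =
            ∑ l ∈ (Finset.univ.erase i).erase j, if a l = 0 then 0 else (a l).natDegree + 1 := by
          refine Finset.sum_congr rfl fun l hl => ?_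
          rw [Function.update_of_ne (Finset.ne_of_mem_erase hl)]
        rw [h3]
        have h4 : (if a j % a k = 0 then 0 else (a j % a k).natDegree + 1) ≤
            (a j).natDegree := by
          split_ifs with h
          · exact Nat.zero_le _
          · have h5 := Polynomial.natDegree_mod_lt (a j) hd
            omega
        omega
      · intro c'
        by_contra hcon
        push Not at hcon
        obtain ⟨l, hl, hl2⟩ := hroot c'
        have hkc : (a k).eval c' = 0 := by
          have := hcon k hki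
          rwa [Function.update_of_ne hjk.symm] at this
        by_cases hlj : l = j
        · subst hlj
          have := hcon l hl
          rw [Function.update_self, Polynomial.eval_sub, Polynomial.eval_mul, hkc, zero_mul,
            sub_zero] at this
          exact hl2 this
        · have := hcon l hl
          rw [Function.update_of_ne hlj] at this
          exact hl2 this

end

/-- the case of a common root -/
theorem common_root {n : ℕ} (f : MvPolynomial (Fin n) ℂ) (hf : IsStableCoordinate f) (i : Fin n)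
    (c e : ℂ) (h : MvPolynomial (Fin n) ℂ) (hh : f = C e + (X i - C c) * h) : IsCoordinate f := by
  have hcr := crit_stable f hf
  obtain ⟨m, _, φ, l, hl⟩ := hf
  obtain ⟨A, hA⟩ : ∃ A, A = φ (X (Sum.inl i) - C c) := ⟨_, rfl⟩
  obtain ⟨B, hB⟩ : ∃ B, B = φ (rename Sum.inl h) := ⟨_, rfl⟩
  have hφC : ∀ a, φ (C a) = C a := fun a => φ.commutes a
  have h1 : X l - C e = A * B := by
    rw [hA, hB, ← map_mul, ← hl, hh, map_add, map_mul, rename_C, map_sub, rename_X, rename_C,
      map_add, hφC, add_sub_cancel_left]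
  have hA0 : A.totalDegree ≠ 0 := by
    intro h0
    rw [totalDegree_eq_zero_iff_eq_C] at h0
    have h2 : φ.symm A = C (coeff 0 A) := by
      conv_lhs => rw [h0]
      exact φ.symm.commutes _
    rw [hA, φ.symm_apply_apply] at h2
    have h3 := congrArg (pderiv (Sum.inl i)) h2
    rw [map_sub, pderiv_X_self, pderiv_C, pderiv_C, sub_zero] at h3
    exact one_ne_zero h3
  have hconst : ∀ u : ℂ, h = C u → IsCoordinate f := by
    intro u hu
    have h2 : pderiv i f = C u := by
      rw [hh, hu, map_add, pderiv_C, zero_add, pderiv_mul, map_sub, pderiv_X_self, pderiv_C,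
        pderiv_C, sub_zero, one_mul, mul_zero, add_zero]
    refine slice1 f i u ?_ h2
    rintro rfl
    obtain ⟨j, hj⟩ := hcr 0
    apply hj
    rw [hh, hu, C_0, mul_zero, add_zero, pderiv_C, map_zero]
  by_cases hB0 : B = 0
  · apply hconst 0
    rw [C_0]
    have h2 : rename (Sum.inl : Fin n → Fin n ⊕ Fin m) h = 0 := by
      apply φ.injective
      rw [← hB, hB0, map_zero]
    exact rename_injective _ Sum.inl_injective (by rw [h2, map_zero])
  · have hAne : A ≠ 0 := by
      rintro h0
      rw [h0] at hA0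
      exact hA0 totalDegree_zero
    have h2 := totalDegree_mul_of_isDomain hAne hB0
    have h3 : (X l - C e : MvPolynomial (Fin n ⊕ Fin m) ℂ).totalDegree ≤ 1 := by
      refine (totalDegree_sub_C_le _ _).trans ?_
      rw [totalDegree_X]
    rw [h1, h2] at h3
    have h4 : B.totalDegree = 0 := by omega
    rw [totalDegree_eq_zero_iff_eq_C] at h4
    apply hconst (coeff 0 B)
    apply rename_injective (Sum.inl : Fin n → Fin n ⊕ Fin m) Sum.inl_injective
    rw [rename_C]
    apply φ.injective
    rw [← hB, hφC]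
    exact h4

/-- stable coordinates which are affine in all variables but one -/
theorem affine_case {n : ℕ} (i : Fin n) (a0 : Polynomial ℂ) (a : Fin n → Polynomial ℂ)
    (hf : IsStableCoordinate (aff i a0 a)) : IsCoordinate (aff i a0 a) := by
  by_cases hroot : ∀ c : ℂ, ∃ j, j ≠ i ∧ (a j).eval c ≠ 0
  · exact aff_coord i a0 _ a le_rfl hroot
  · push Not at hroot
    obtain ⟨c, hc⟩ := hroot
    have hdiv : ∀ p : Polynomial ℂ, ∃ q, p = Polynomial.C (p.eval c) +
        (Polynomial.X - Polynomial.C c) * q := by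
      intro p
      obtain ⟨q, hq⟩ := Polynomial.X_sub_C_dvd_sub_C_eval (a := c) (p := p)
      exact ⟨q, by rw [← hq]; ring⟩
    obtain ⟨q0, hq0⟩ := hdiv a0
    have hdiv2 : ∀ j, ∃ q, j ≠ i → a j = (Polynomial.X - Polynomial.C c) * q := by
      intro j
      obtain ⟨q, hq⟩ := hdiv (a j)
      refine ⟨q, fun hj => ?_⟩
      rw [hc j hj, Polynomial.C_0, zero_add] at hq
      exact hq
    choose b hb using hdiv2
    refine common_root _ hf i c (a0.eval c)
      (Polynomial.aeval (X i) q0 +
        ∑ j ∈ Finset.univ.erase i, Polynomial.aeval (X i) (b j) * X j) ?_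
    unfold aff
    have h1 : Polynomial.aeval (X i : MvPolynomial (Fin n) ℂ) a0 =
        C (a0.eval c) + (X i - C c) * Polynomial.aeval (X i) q0 := by
      conv_lhs => rw [hq0]
      rw [map_add, map_mul, map_sub, Polynomial.aeval_C, Polynomial.aeval_X, Polynomial.aeval_C]
      rfl
    have h2 : ∀ j ∈ Finset.univ.erase i,
        Polynomial.aeval (X i : MvPolynomial (Fin n) ℂ) (a j) * X j =
        (X i - C c) * (Polynomial.aeval (X i) (b j) * X j) := by
      intro j hj
      conv_lhs => rw [hb j (Finset.ne_of_mem_erase hj)]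
      rw [map_mul, map_sub, Polynomial.aeval_X, Polynomial.aeval_C, mul_assoc]
      rfl
    rw [h1, Finset.sum_congr rfl h2, ← Finset.mul_sum]
    ring

end Vale.P295
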