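import Vale.Agent.P295.Defs

/-! P295: stable coordinates (helper5). -/

namespace Vale.P295

open MvPolynomial

/-- chain rule -/
theorem chain {σ : Type} [Fintype σ] [DecidableEq σ]
    (φ : MvPolynomial σ ℂ →ₐ[ℂ] MvPolynomial σ ℂ) (k : σ) (h : MvPolynomial σ ℂ) :
    pderiv k (φ h) = ∑ j, φ (pderiv j h) * pderiv k (φ (X j)) := by
  induction h using MvPolynomial.induction_on with
  | C a =>
    have h1 : φ (C a) = C a := φ.commutes a
    rw [h1, pderiv_C]
    symm
    refine Finset.sum_eq_zero fun j _ => ?_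
    rw [pderiv_C, map_zero, zero_mul]
  | add p q hp hq =>
    rw [map_add, map_add, hp, hq, ← Finset.sum_add_distrib]
    refine Finset.sum_congr rfl fun j _ => ?_
    rw [map_add, map_add, add_mul]
  | mul_X p l hp =>
    rw [map_mul, pderiv_mul, hp]
    have h1 : ∀ j, φ (pderiv j (p * X l)) * pderiv k (φ (X j)) =
        φ (pderiv j p) * pderiv k (φ (X j)) * φ (X l) +
          (if j = l then φ p * pderiv k (φ (X l)) else 0) := by
      intro j
      rw [pderiv_mul, map_add, map_mul, map_mul]
      by_cases hj : j = l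
      · subst hj
        rw [pderiv_X_self, if_pos rfl, map_one]
        ring
      · rw [pderiv_X_of_ne (fun e => hj e.symm), if_neg hj, map_zero]
        ring
    rw [Finset.sum_congr rfl fun j _ => h1 j, Finset.sum_add_distrib, ← Finset.sum_mul,
      Finset.sum_ite_eq' Finset.univ l]
    simp

/-- a coordinate has no critical point -/
theorem crit {σ : Type} [Fintype σ] [DecidableEq σ] (g : MvPolynomial σ ℂ) (hg : IsCoordinate g)
    (p : σ → ℂ) : ∃ j, eval p (pderiv j g) ≠ 0 := by
  by_contra hcon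
  push Not at hcon
  obtain ⟨φ, i, hi⟩ := hg
  obtain ⟨q, hq⟩ : ∃ q : σ → ℂ, q = fun k => eval p (φ.symm (X k)) := ⟨_, rfl⟩
  have h1 : ∀ h : MvPolynomial σ ℂ, eval q h = eval p (φ.symm h) := by
    intro h
    have e : (aeval q : MvPolynomial σ ℂ →ₐ[ℂ] ℂ) =
        (aeval p : MvPolynomial σ ℂ →ₐ[ℂ] ℂ).comp φ.symm.toAlgHom := by
      apply MvPolynomial.algHom_ext
      intro k
      rw [aeval_X, hq]
      simp [aeval_eq_eval]
    have e2 := DFunLike.congr_fun e h
    simpa [aeval_eq_eval] using e2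
  have h2 := chain φ.toAlgHom i g
  have h3 : φ.toAlgHom g = X i := hi
  rw [h3, pderiv_X_self] at h2
  have h4 := congrArg (eval q) h2
  rw [map_one, map_sum] at h4
  have h5 : ∑ j, eval q (φ.toAlgHom (pderiv j g) * pderiv i (φ.toAlgHom (X j))) = 0 := by
    refine Finset.sum_eq_zero fun j _ => ?_
    rw [map_mul, h1]
    have h6 : φ.symm (φ.toAlgHom (pderiv j g)) = pderiv j g := φ.symm_apply_apply _
    rw [h6, hcon j, zero_mul]
  rw [h5] at h4
  exact one_ne_zero h4

/-- a stable coordinate has no critical point -/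
theorem crit_stable {n : ℕ} (f : MvPolynomial (Fin n) ℂ) (hf : IsStableCoordinate f)
    (p : Fin n → ℂ) : ∃ j, eval p (pderiv j f) ≠ 0 := by
  obtain ⟨m, _, h⟩ := hf
  obtain ⟨j, hj⟩ := crit _ h (Sum.elim p 0)
  rcases j with j | j
  · refine ⟨j, ?_⟩
    rw [pderiv_rename Sum.inl_injective, eval_rename] at hj
    exact hj
  · exfalso
    apply hj
    rw [pderiv_eq_zero_of_notMem_vars, map_zero]
    intro hmem
    have := vars_rename Sum.inl f hmem
    simp at this

end Vale.P295
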