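import Mathlib

/-! P295: coordinates and stable coordinates (definitions). -/

namespace Vale.P295

open MvPolynomial

/-- `f` is a coordinate: some algebra automorphism of the polynomial ring sends `f` to a
variable. -/
def IsCoordinate {σ : Type} (f : MvPolynomial σ ℂ) : Prop :=
  ∃ (φ : MvPolynomial σ ℂ ≃ₐ[ℂ] MvPolynomial σ ℂ) (i : σ), φ f = X i

/-- `f` is a stable coordinate: it is a coordinate of `R_n[w_1, …, w_m]` for some `m ≥ 1`. -/
def IsStableCoordinate {n : ℕ} (f : MvPolynomial (Fin n) ℂ) : Prop :=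
  ∃ m : ℕ, 1 ≤ m ∧ IsCoordinate (rename Sum.inl f : MvPolynomial (Fin n ⊕ Fin m) ℂ)

end Vale.P295
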