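import Vale.Agent.P295.Basic

/-! P295: slices and quadratic polynomials (helper5). -/

namespace Vale.P295

open MvPolynomial
open Finsupp (single)

variable {σ : Type} [Fintype σ] [DecidableEq σ]

theorem notMem_vars (h : MvPolynomial σ ℂ) (i : σ) (hh : pderiv i h = 0) : i ∉ h.vars := by
  intro hm
  rw [mem_vars] at hm
  obtain ⟨s, hs, his⟩ := hm
  have h1 : 1 ≤ s i := Nat.one_le_iff_ne_zero.2 (Finsupp.mem_support_iff.1 his)
  have h2 := coeff_pderiv (i := i) h (s - single i 1)
  have h3 : s - single i 1 + single i 1 = s := by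
    apply tsub_add_cancel_of_le
    rw [Finsupp.single_le_iff]
    exact h1
  rw [hh, coeff_zero, h3] at h2
  have h4 : coeff s h ≠ 0 := mem_support_iff.1 hs
  have h5 := Nat.cast_add_one_ne_zero (R := ℂ) ((s - single i 1 : σ →₀ ℕ) i)
  exact (mul_ne_zero h4 h5) h2.symm

theorem hom_fix (E : MvPolynomial σ ℂ →ₐ[ℂ] MvPolynomial σ ℂ) (h : MvPolynomial σ ℂ) (i : σ)
    (hi : i ∉ h.vars) (hE : ∀ j, j ≠ i → E (X j) = X j) : E h = h := by
  have := hom_congr_vars (f₁ := (E : MvPolynomial σ ℂ →+* MvPolynomial σ ℂ))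
    (f₂ := RingHom.id _) (p₁ := h) (p₂ := h) (by
      ext a
      simp) (fun j hj _ => by
        have hne : j ≠ i := fun e => hi (e ▸ hj)
        simpa using hE j hne) rfl
  simpa using this

theorem coord_of_equiv (θ : MvPolynomial σ ℂ ≃ₐ[ℂ] MvPolynomial σ ℂ) (f : MvPolynomial σ ℂ)
    (h : IsCoordinate (θ f)) : IsCoordinate f := by
  obtain ⟨φ, i, hi⟩ := h
  exact ⟨θ.trans φ, i, hi⟩

/-- a polynomial with a nonzero constant partial derivative is a coordinate -/
theorem slice1 (g : MvPolynomial σ ℂ) (i : σ) (c : ℂ) (hc : c ≠ 0) (hg : pderiv i g = C c) :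
    IsCoordinate g := by
  obtain ⟨h, hh⟩ : ∃ h, h = g - C c * X i := ⟨_, rfl⟩
  have h1 : pderiv i h = 0 := by
    rw [hh, map_sub, hg, pderiv_C_mul, pderiv_X_self, mul_one, sub_self]
  have hi := notMem_vars h i h1
  obtain ⟨F, hF⟩ : ∃ F : MvPolynomial σ ℂ →ₐ[ℂ] MvPolynomial σ ℂ,
      F = aeval (Function.update X i (C c⁻¹ * (X i - h))) := ⟨_, rfl⟩
  obtain ⟨G, hG⟩ : ∃ G : MvPolynomial σ ℂ →ₐ[ℂ] MvPolynomial σ ℂ,
      G = aeval (Function.update X i (C c * X i + h)) := ⟨_, rfl⟩
  have F1 : F (X i) = C c⁻¹ * (X i - h) := by rw [hF, aeval_X, Function.update_self]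
  have F2 : ∀ j, j ≠ i → F (X j) = X j := fun j hj => by
    rw [hF, aeval_X, Function.update_of_ne hj]
  have G1 : G (X i) = C c * X i + h := by rw [hG, aeval_X, Function.update_self]
  have G2 : ∀ j, j ≠ i → G (X j) = X j := fun j hj => by
    rw [hG, aeval_X, Function.update_of_ne hj]
  have Fh : F h = h := hom_fix F h i hi F2
  have Gh : G h = h := hom_fix G h i hi G2
  have FC : ∀ a, F (C a) = C a := fun a => F.commutes a
  have GC : ∀ a, G (C a) = C a := fun a => G.commutes a
  have hcc : (C c : MvPolynomial σ ℂ) * C c⁻¹ = 1 := by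
    rw [← C_mul, mul_inv_cancel₀ hc, C_1]
  have e1 : F.comp G = AlgHom.id ℂ _ := by
    apply MvPolynomial.algHom_ext
    intro j
    by_cases hj : j = i
    · subst hj
      rw [AlgHom.comp_apply, G1, map_add, map_mul, F1, FC, Fh, ← mul_assoc, hcc, one_mul,
        sub_add_cancel]
      rfl
    · rw [AlgHom.comp_apply, G2 j hj, F2 j hj]
      rfl
  have e2 : G.comp F = AlgHom.id ℂ _ := by
    apply MvPolynomial.algHom_ext
    intro j
    by_cases hj : j = i
    · subst hj
      rw [AlgHom.comp_apply, F1, map_mul, map_sub, G1, GC, Gh, add_sub_cancel_right, ← mul_assoc,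
        mul_comm (C c⁻¹ : MvPolynomial σ ℂ), hcc, one_mul]
      rfl
    · rw [AlgHom.comp_apply, F2 j hj, G2 j hj]
      rfl
  refine ⟨AlgEquiv.ofAlgHom F G e1 e2, i, ?_⟩
  change F g = X i
  have hg2 : g = C c * X i + h := by
    rw [hh]
    ring
  rw [hg2, map_add, map_mul, FC, F1, Fh, ← mul_assoc, hcc, one_mul, sub_add_cancel]

/-- a polynomial with a nonzero constant directional derivative is a coordinate -/
theorem slice (f : MvPolynomial σ ℂ) (v : σ → ℂ) (c : ℂ) (hc : c ≠ 0)
    (hf : ∑ j, C (v j) * pderiv j f = C c) : IsCoordinate f := by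
  obtain ⟨i, hvi⟩ : ∃ i, v i ≠ 0 := by
    by_contra hcon
    push Not at hcon
    have h1 : ∑ j, C (v j) * pderiv j f = 0 :=
      Finset.sum_eq_zero fun j _ => by rw [hcon j, C_0, zero_mul]
    rw [h1] at hf
    exact hc (C_injective σ ℂ (by rw [← hf, C_0]))
  obtain ⟨F, hF⟩ : ∃ F : MvPolynomial σ ℂ →ₐ[ℂ] MvPolynomial σ ℂ,
      F = aeval (fun j => if j = i then C (v i) * X i else X j + C (v j) * X i) := ⟨_, rfl⟩
  obtain ⟨G, hG⟩ : ∃ G : MvPolynomial σ ℂ →ₐ[ℂ] MvPolynomial σ ℂ,
      G = aeval (fun j => if j = i then C (v i)⁻¹ * X i else X j - C (v j * (v i)⁻¹) * X i) :=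
    ⟨_, rfl⟩
  have F1 : F (X i) = C (v i) * X i := by rw [hF, aeval_X, if_pos rfl]
  have F2 : ∀ j, j ≠ i → F (X j) = X j + C (v j) * X i := fun j hj => by
    rw [hF, aeval_X, if_neg hj]
  have G1 : G (X i) = C (v i)⁻¹ * X i := by rw [hG, aeval_X, if_pos rfl]
  have G2 : ∀ j, j ≠ i → G (X j) = X j - C (v j * (v i)⁻¹) * X i := fun j hj => by
    rw [hG, aeval_X, if_neg hj]
  have FC : ∀ a, F (C a) = C a := fun a => F.commutes a
  have GC : ∀ a, G (C a) = C a := fun a => G.commutes a
  have hcc : (C (v i) : MvPolynomial σ ℂ) * C (v i)⁻¹ = 1 := by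
    rw [← C_mul, mul_inv_cancel₀ hvi, C_1]
  have e1 : F.comp G = AlgHom.id ℂ _ := by
    apply MvPolynomial.algHom_ext
    intro j
    by_cases hj : j = i
    · subst hj
      rw [AlgHom.comp_apply, G1, map_mul, F1, FC, ← mul_assoc, mul_comm (C (v j)⁻¹), hcc, one_mul]
      rfl
    · rw [AlgHom.comp_apply, G2 j hj, map_sub, map_mul, F1, F2 j hj, FC, C_mul]
      have : (X j : MvPolynomial σ ℂ) + C (v j) * X i - C (v j) * C (v i)⁻¹ * (C (v i) * X i) =
          X j + C (v j) * X i * (1 - C (v i) * C (v i)⁻¹) := by ring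
      rw [this, hcc, sub_self, mul_zero, add_zero]
      rfl
  have e2 : G.comp F = AlgHom.id ℂ _ := by
    apply MvPolynomial.algHom_ext
    intro j
    by_cases hj : j = i
    · subst hj
      rw [AlgHom.comp_apply, F1, map_mul, G1, GC, ← mul_assoc, hcc, one_mul]
      rfl
    · rw [AlgHom.comp_apply, F2 j hj, map_add, map_mul, G1, G2 j hj, GC, C_mul]
      have : (X j : MvPolynomial σ ℂ) - C (v j) * C (v i)⁻¹ * X i + C (v j) * (C (v i)⁻¹ * X i) =
          X j := by ring
      rw [this]
      rfl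
  refine coord_of_equiv (AlgEquiv.ofAlgHom F G e1 e2) f (slice1 _ i c hc ?_)
  change pderiv i (F f) = C c
  rw [chain F i f]
  have h1 : ∀ j, F (pderiv j f) * pderiv i (F (X j)) = F (C (v j) * pderiv j f) := by
    intro j
    rw [map_mul, FC]
    by_cases hj : j = i
    · subst hj
      rw [F1, pderiv_C_mul, pderiv_X_self, mul_one, mul_comm]
    · rw [F2 j hj, map_add, pderiv_X_of_ne hj, pderiv_C_mul, pderiv_X_self, zero_add, mul_one,
        mul_comm]
  rw [Finset.sum_congr rfl fun j _ => h1 j, ← map_sum, hf, FC]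

theorem deg_pderiv (f : MvPolynomial σ ℂ) (hf : f.totalDegree ≤ 2) (j : σ) :
    (pderiv j f).totalDegree ≤ 1 := by
  refine Finset.sup_le fun m hm => ?_
  have h1 := mem_support_iff.1 hm
  rw [coeff_pderiv] at h1
  have h2 : m + single j 1 ∈ f.support := mem_support_iff.2 (left_ne_zero_of_mul h1)
  have h3 := le_totalDegree h2
  have h4 : ((m + single j 1).sum fun _ e => e) = (m.sum fun _ e => e) + 1 := by
    rw [Finsupp.sum_add_index' (fun _ => rfl) (fun _ _ _ => rfl), Finsupp.sum_single_index rfl]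
  omega

theorem linear_form (p : MvPolynomial σ ℂ) (hp : p.totalDegree ≤ 1) :
    p = C (coeff 0 p) + ∑ k, C (coeff (single k 1) p) * X k := by
  ext m
  rw [coeff_add, coeff_C, coeff_sum]
  have h1 : ∀ k, coeff m (C (coeff (single k 1) p) * X k) =
      if single k 1 = m then coeff (single k 1) p else 0 := by
    intro k
    rw [coeff_C_mul, coeff_X']
    split_ifs
    · rw [mul_one]
    · rw [mul_zero]
  rw [Finset.sum_congr rfl fun k _ => h1 k]
  by_cases hm : m ∈ p.support
  · have h2 := (le_totalDegree hm).trans hp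
    by_cases h0 : m = 0
    · subst h0
      rw [if_pos rfl, Finset.sum_eq_zero, add_zero]
      intro k _
      rw [if_neg (by simp)]
    · obtain ⟨k, hk⟩ : ∃ k, m = single k 1 := by
        obtain ⟨k, hk⟩ := Finsupp.ne_iff.1 h0
        refine ⟨k, ?_⟩
        have hk1 : 1 ≤ m k := Nat.one_le_iff_ne_zero.2 (by simpa using hk)
        have h3 : single k 1 ≤ m := Finsupp.single_le_iff.2 hk1
        obtain ⟨m', rfl⟩ := exists_add_of_le h3
        rw [Finsupp.sum_add_index' (fun _ => rfl) (fun _ _ _ => rfl),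
          Finsupp.sum_single_index rfl] at h2
        have h4 : (m'.sum fun _ e => e) = 0 := by omega
        have h5 : m' = 0 := by
          ext l
          by_contra hl
          have hl' : l ∈ m'.support := Finsupp.mem_support_iff.2 (by simpa using hl)
          have := Finset.single_le_sum (f := fun l => m' l) (fun _ _ => Nat.zero_le _) hl'
          have h6 : m'.sum (fun _ e => e) = ∑ l ∈ m'.support, m' l := rfl
          rw [h6] at h4
          simp only [Finsupp.coe_zero, Pi.zero_apply] at hl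
          omega
        rw [h5, add_zero]
      subst hk
      rw [if_neg (by
        intro e
        have := DFunLike.congr_fun e k
        simp at this), zero_add, Finset.sum_eq_single k]
      · rw [if_pos rfl]
      · intro l _ hl
        rw [if_neg]
        intro e
        exact hl (Finsupp.single_left_injective one_ne_zero e)
      · intro h
        exact absurd (Finset.mem_univ k) h
  · rw [notMem_support_iff.1 hm]
    symm
    have h2 : (if (0 : σ →₀ ℕ) = m then coeff 0 p else 0) = 0 := by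
      split_ifs with h
      · rw [h]
        exact notMem_support_iff.1 hm
      · rfl
    rw [h2, zero_add]
    refine Finset.sum_eq_zero fun k _ => ?_
    split_ifs with h
    · rw [h]
      exact notMem_support_iff.1 hm
    · rfl

/-- a polynomial of degree at most two without critical points is a coordinate -/
theorem quad (f : MvPolynomial σ ℂ) (hf : f.totalDegree ≤ 2)
    (hcrit : ∀ p : σ → ℂ, ∃ j, eval p (pderiv j f) ≠ 0) : IsCoordinate f := by
  obtain ⟨b, hb⟩ : ∃ b : σ → ℂ, b = fun j => coeff 0 (pderiv j f) := ⟨_, rfl⟩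
  obtain ⟨A, hA⟩ : ∃ A : Matrix σ σ ℂ, A = fun j k => coeff (single k 1) (pderiv j f) :=
    ⟨_, rfl⟩
  have hlin : ∀ j, pderiv j f = C (b j) + ∑ k, C (A j k) * X k := by
    intro j
    rw [hb, hA]
    exact linear_form _ (deg_pderiv f hf j)
  have hnot : b ∉ LinearMap.range A.mulVecLin := by
    rintro ⟨p, hp⟩
    obtain ⟨j, hj⟩ := hcrit (-p)
    apply hj
    rw [hlin j, map_add, eval_C, map_sum]
    have h1 : ∀ k, eval (-p) (C (A j k) * X k) = -(A j k * p k) := by
      intro k
      rw [map_mul, eval_C, eval_X, Pi.neg_apply]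
      ring
    rw [Finset.sum_congr rfl fun k _ => h1 k, Finset.sum_neg_distrib]
    have h2 := congrFun hp j
    rw [Matrix.mulVecLin_apply] at h2
    have h3 : A.mulVec p j = ∑ k, A j k * p k := rfl
    rw [h3] at h2
    rw [← h2]
    ring
  obtain ⟨g, hg1, hg2⟩ := Submodule.exists_le_ker_of_notMem hnot
  obtain ⟨v, hv⟩ : ∃ v : σ → ℂ, v = fun j => g (Pi.single j 1) := ⟨_, rfl⟩
  have hgv : ∀ w : σ → ℂ, g w = ∑ j, w j * v j := by
    intro w
    have h1 : w = ∑ j, w j • (Pi.single j 1 : σ → ℂ) := by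
      funext k
      rw [Finset.sum_apply, Finset.sum_eq_single k]
      · simp
      · intro l _ hl
        simp [Pi.single_eq_of_ne hl.symm]
      · intro h
        exact absurd (Finset.mem_univ k) h
    conv_lhs => rw [h1]
    rw [map_sum]
    refine Finset.sum_congr rfl fun j _ => ?_
    rw [map_smul, hv, smul_eq_mul]
  have hvA : ∀ k, ∑ j, v j * A j k = 0 := by
    intro k
    have h1 : A.mulVecLin (Pi.single k 1) ∈ LinearMap.range A.mulVecLin := ⟨_, rfl⟩
    have h2 := hg2 h1
    rw [LinearMap.mem_ker, hgv] at h2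
    rw [← h2]
    refine Finset.sum_congr rfl fun j _ => ?_
    rw [Matrix.mulVecLin_apply, Matrix.mulVec_single_one]
    rw [mul_comm]
    rfl
  refine slice f v (∑ j, b j * v j) (by rw [← hgv]; exact hg1) ?_
  have h1 : ∀ j, C (v j) * pderiv j f =
      C (b j * v j) + ∑ k, C (v j * A j k) * X k := by
    intro j
    rw [hlin j, mul_add, Finset.mul_sum, ← C_mul, mul_comm (v j) (b j)]
    congr 1
    refine Finset.sum_congr rfl fun k _ => ?_
    rw [← mul_assoc, ← C_mul]
  rw [Finset.sum_congr rfl fun j _ => h1 j, Finset.sum_add_distrib, Finset.sum_comm, ← map_sum]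
  have h2 : ∀ k, ∑ j, C (v j * A j k) * X k = (0 : MvPolynomial σ ℂ) := by
    intro k
    rw [← Finset.sum_mul, ← map_sum, hvA k, C_0, zero_mul]
  rw [Finset.sum_congr rfl fun k _ => h2 k, Finset.sum_const_zero, add_zero]

end Vale.P295
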